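import Vale.Agent.Lib.P266.Final

/-!
Lipman-Zariski for graded algebras: local polynomial structure over the degree zero part.
-/

open DirectSum

namespace Vale.Agent.Results.P266.GradedStructure

/-- Let `A` be a normal finitely generated `ℕ`-graded domain over a field `k` of characteristic
zero whose module of derivations is projective.  For every prime `P` containing all homogeneous
elements of positive degree there are finitely many homogeneous elements of positive degree,
algebraically independent over the degree zero part `𝒜 0`, and an element `u` of `𝒜 0` outside `P`,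
such that every element of `A` becomes a polynomial in these elements over `𝒜 0` after multiplying
by a power of `u`.  That is: after inverting `u`, the ring `A` is a polynomial ring over `𝒜 0`. -/
theorem result {k A : Type*} [Field k] [CharZero k] [CommRing A] [IsDomain A] [Algebra k A]
    [Algebra.FiniteType k A] [IsIntegrallyClosed A] (𝒜 : ℕ → Submodule k A) [GradedAlgebra 𝒜]
    [Module.Projective A (Derivation k A A)] (P : Ideal A) [P.IsPrime]
    (hP : ∀ n, n ≠ 0 → ∀ x ∈ 𝒜 n, x ∈ P) :
    ∃ X : Finset A, (∀ x ∈ X, ∃ n, n ≠ 0 ∧ x ∈ 𝒜 n) ∧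
      AlgebraicIndependent (𝒜 0) (fun x : X => (x : A)) ∧
      ∃ u, u ∈ 𝒜 0 ∧ u ∉ P ∧ ∀ a, ∃ N, u ^ N * a ∈ Algebra.adjoin (𝒜 0) (X : Set A) := by
  classical
  have hIP : Vale.Agent.Lib.P266.irr 𝒜 ≤ P := by
    intro a ha
    have h0 : (decompose 𝒜 a 0 : A) = 0 := ha
    rw [← sum_support_decompose 𝒜 a]
    apply Ideal.sum_mem
    intro n hn
    by_cases h : n = 0
    · subst h
      rw [h0]
      exact P.zero_mem
    · exact hP n h _ (SetLike.coe_mem _)
  exact Vale.Agent.Lib.P266.graded_structure 𝒜 P hIP

end Vale.Agent.Results.P266.GradedStructure
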