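import Vale.Agent.Results.P266.FilteredDeformation
import Vale.Agent.Results.P266.GradedStructure

/-!
# P266: filtered deformations of surface singularities and graded algebras, stated together
-/

open DirectSum

universe u v w

namespace Vale.Agent.Results.P266.A0Conj

/-- The statement of `FilteredDeformation.result`: a normal surface with a normal graded
degeneration of small a-invariant does not have projective derivations. -/
def FilteredPart : Prop :=
  ∀ (k : Type u) (A : Type v) (R : Type w) [Field k] [CharZero k] [CommRing A] [IsDomain A]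
    [Algebra k A] [Algebra.FiniteType k A] [IsIntegrallyClosed A],
    Algebra.trdeg k A = 2 →
    ∀ [CommRing R] [IsDomain R] [Algebra k R] [Algebra.FiniteType k R] [IsIntegrallyClosed R]
    (𝓡 : ℕ → Submodule k R) [GradedAlgebra 𝓡], (∀ r ∈ 𝓡 0, ∃ c : k, r = algebraMap k R c) →
    ∀ (F : ℕ → Ideal A) (σ : ℕ → A →ₗ[k] R), Vale.Agent.Lib.P266.IsAssocGraded F 𝓡 σ →
    ∀ (u : Fin 2 → R) (d : Fin 2 → ℕ), (∀ j, d j ≠ 0) → (∀ j, u j ∈ 𝓡 (d j)) →
    AlgebraicIndependent k u → ∀ a : ℕ,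
    (∃ s ∈ 𝓡 (d 0 + d 1 + a), s ∉ Ideal.span (Set.range u)) →
    (∀ n, d 0 + d 1 + a < n → ∀ r ∈ 𝓡 n, r ∈ Ideal.span (Set.range u)) →
    (∀ m n f g, f ∈ 𝓡 m → g ∈ 𝓡 n → ¬ f ∣ g → ¬ g ∣ f → a ≤ m + n + 1) →
    ¬ Module.Projective A (Derivation k A A)

/-- The statement of `GradedStructure.result`: a normal graded algebra with projective derivations
is locally a polynomial ring over its degree zero part. -/
def GradedPart : Prop :=
  ∀ (k : Type u) (A : Type v) [Field k] [CharZero k] [CommRing A] [IsDomain A] [Algebra k A]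
    [Algebra.FiniteType k A] [IsIntegrallyClosed A] (𝒜 : ℕ → Submodule k A) [GradedAlgebra 𝒜]
    [Module.Projective A (Derivation k A A)] (P : Ideal A) [P.IsPrime],
    (∀ n, n ≠ 0 → ∀ x ∈ 𝒜 n, x ∈ P) →
    ∃ X : Finset A, (∀ x ∈ X, ∃ n, n ≠ 0 ∧ x ∈ 𝒜 n) ∧
      AlgebraicIndependent (𝒜 0) (fun x : X => (x : A)) ∧
      ∃ u, u ∈ 𝒜 0 ∧ u ∉ P ∧ ∀ a, ∃ N, u ^ N * a ∈ Algebra.adjoin (𝒜 0) (X : Set A)

end Vale.Agent.Results.P266.A0Conj

/-- The conjunction of `FilteredDeformation.result` and `GradedStructure.result`. -/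
theorem Vale.Agent.Results.P266.A0Conj.result :
    Vale.Agent.Results.P266.A0Conj.FilteredPart.{u, v, w} ∧
      Vale.Agent.Results.P266.A0Conj.GradedPart.{u, v} :=
  ⟨fun _ _ _ _ _ _ _ _ _ _ hA _ _ _ _ _ 𝓡 _ h0 F σ h u d hd hu hind a hsoc htop hnum =>
      Vale.Agent.Results.P266.FilteredDeformation.result hA 𝓡 h0 F σ h u d hd hu hind a hsoc htop
        hnum,
    fun _ _ _ _ _ _ _ _ _ 𝒜 _ _ P _ hP =>
      Vale.Agent.Results.P266.GradedStructure.result 𝒜 P hP⟩
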