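import Vale.Agent.Lib.P266.FilterFinal
import Vale.Agent.Lib.P266.LemmaB

/-!
Lipman-Zariski for filtered deformations of normal graded surface singularities of small
a-invariant.
-/

namespace Vale.Agent.Results.P266.FilteredDeformation

/-- Let `A` be a normal finitely generated domain of transcendence degree two over a field `k` of
characteristic zero, with a multiplicative filtration by ideals `F n` whose associated graded ring is
a normal finitely generated domain `R = ⨁ 𝓡 n` with `𝓡 0 = k` (this is `IsAssocGraded`).  Let `u` be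
a homogeneous system of parameters of `R` of degrees `d 0`, `d 1`, and let `a` be the a-invariant of
`R`: the top degree of `R / (u)` is `d 0 + d 1 + a`.  Suppose that `a ≤ m + n + 1` whenever
homogeneous elements of degrees `m`, `n` do not divide each other.  Then the module of derivations
of `A` is not projective.  -/
theorem result {k A R : Type*} [Field k] [CharZero k] [CommRing A] [IsDomain A] [Algebra k A]
    [Algebra.FiniteType k A] [IsIntegrallyClosed A] (hA : Algebra.trdeg k A = 2)
    [CommRing R] [IsDomain R] [Algebra k R] [Algebra.FiniteType k R] [IsIntegrallyClosed R]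
    (𝓡 : ℕ → Submodule k R) [GradedAlgebra 𝓡] (h0 : ∀ r ∈ 𝓡 0, ∃ c : k, r = algebraMap k R c)
    (F : ℕ → Ideal A) (σ : ℕ → A →ₗ[k] R) (h : Vale.Agent.Lib.P266.IsAssocGraded F 𝓡 σ)
    (u : Fin 2 → R) (d : Fin 2 → ℕ) (hd : ∀ j, d j ≠ 0) (hu : ∀ j, u j ∈ 𝓡 (d j))
    (hind : AlgebraicIndependent k u) (a : ℕ)
    (hsoc : ∃ s ∈ 𝓡 (d 0 + d 1 + a), s ∉ Ideal.span (Set.range u))
    (htop : ∀ n, d 0 + d 1 + a < n → ∀ r ∈ 𝓡 n, r ∈ Ideal.span (Set.range u))
    (hnum : ∀ m n f g, f ∈ 𝓡 m → g ∈ 𝓡 n → ¬ f ∣ g → ¬ g ∣ f → a ≤ m + n + 1) :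
    ¬ Module.Projective A (Derivation k A A) :=
  Vale.Agent.Lib.P266.filtered_of_H hA h h0 u d hd hu a htop
    (fun κ hκ θ hθ => Vale.Agent.Lib.P266.hH_of_normal 𝓡 h0 u d hd hu hind a hsoc htop κ hκ θ hθ)
    hnum

end Vale.Agent.Results.P266.FilteredDeformation
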